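import Mathlib

/-!
P097, case [c], (A5): the OSCILLATING all-scale point.

A measurable set E of the line such that E and its complement have positive measure in every
subinterval of (a, b); q0 < q1 < q2 < q3 in (0, 1).  There are nested closed intervals
I_0, I_1, .. in [a, b], each one half as long as the one before, in which the density of E stays
in [q0, q3] for ever, and is equal to q1 infinitely often and to q2 infinitely often.
-/

namespace Vale.Agent.P097.H290.Osc

open MeasureTheory Set Filter Topology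

/-- a chain of halvings g 0, .., g M (left ends), the i-th interval is [g i, g i + s / 2 ^ i],
with all increments of F between q and q' times the length -/
def Ch (F : ℝ → ℝ) (q q' s : ℝ) (g : ℕ → ℝ) (M : ℕ) : Prop :=
  (∀ i < M, g i ≤ g (i + 1) ∧ g (i + 1) + s / 2 ^ (i + 1) ≤ g i + s / 2 ^ i) ∧
  (∀ i ≤ M, q * (s / 2 ^ i) ≤ F (g i + s / 2 ^ i) - F (g i) ∧
    F (g i + s / 2 ^ i) - F (g i) ≤ q' * (s / 2 ^ i))

theorem Ch.mono {F : ℝ → ℝ} {q q' r r' s : ℝ} {g : ℕ → ℝ} {M : ℕ} (hs : 0 ≤ s)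
    (h : Ch F q q' s g M) (hr : r ≤ q) (hr' : q' ≤ r') : Ch F r r' s g M := by
  refine ⟨h.1, fun i hi => ?_⟩
  have h1 := h.2 i hi
  have hp : 0 ≤ s / 2 ^ i := by positivity
  exact ⟨(mul_le_mul_of_nonneg_right hr hp).trans h1.1,
    h1.2.trans (mul_le_mul_of_nonneg_right hr' hp)⟩

/-- concatenation of two chains -/
def cat (g h : ℕ → ℝ) (M : ℕ) : ℕ → ℝ := fun n => if n ≤ M then g n else h (n - M)

theorem cat_le {g h : ℕ → ℝ} {M n : ℕ} (hn : n ≤ M) : cat g h M n = g n := by
  simp [cat, hn]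

theorem cat_ge {g h : ℕ → ℝ} {M n : ℕ} (h0 : h 0 = g M) : cat g h M (M + n) = h n := by
  rcases Nat.eq_zero_or_pos n with rfl | hn
  · simp [cat, h0]
  · have : ¬ (M + n ≤ M) := by omega
    simp [cat, this]

theorem Ch.cat {F : ℝ → ℝ} {q q' s : ℝ} {g h : ℕ → ℝ} {M M' : ℕ}
    (hg : Ch F q q' s g M) (hh : Ch F q q' (s / 2 ^ M) h M') (h0 : h 0 = g M) :
    Ch F q q' s (cat g h M) (M + M') := by
  have key : ∀ i, s / 2 ^ M / 2 ^ i = s / 2 ^ (M + i) := by
    intro i
    rw [pow_add, div_div]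
  refine ⟨fun i hi => ?_, fun i hi => ?_⟩
  · rcases lt_or_ge i M with hlt | hge
    · rw [cat_le hlt.le, cat_le (Nat.succ_le_of_lt hlt)]
      exact hg.1 i hlt
    · obtain ⟨j, rfl⟩ := Nat.exists_eq_add_of_le hge
      have h1 := hh.1 j (by omega)
      rw [key, key] at h1
      rw [show M + j + 1 = M + (j + 1) by ring, cat_ge h0, cat_ge h0]
      exact h1
  · rcases le_or_gt i M with hle | hgt
    · rw [cat_le hle]
      exact hg.2 i hle
    · obtain ⟨j, rfl⟩ := Nat.exists_eq_add_of_le hgt.le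
      have h1 := hh.2 j (by omega)
      rw [key] at h1
      rw [cat_ge h0]
      exact h1

section meas

variable {E : Set ℝ}

/-- the primitive of the indicator function of E -/
noncomputable def P (E : Set ℝ) (x : ℝ) : ℝ := ∫ t in (0 : ℝ)..x, E.indicator (fun _ => (1 : ℝ)) t

theorem int_ind (hE : MeasurableSet E) (a b : ℝ) :
    IntervalIntegrable (E.indicator (fun _ => (1 : ℝ))) volume a b := by
  rw [intervalIntegrable_iff]
  exact (integrableOn_const (by simp)).indicator hE

theorem P_sub (hE : MeasurableSet E) (x y : ℝ) :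
    P E y - P E x = ∫ t in x..y, E.indicator (fun _ => (1 : ℝ)) t := by
  unfold P
  rw [intervalIntegral.integral_interval_sub_left (int_ind hE _ _) (int_ind hE _ _)]

theorem P_cont (hE : MeasurableSet E) : Continuous (P E) :=
  intervalIntegral.continuous_primitive (fun a b => int_ind hE a b) 0

/-- measure of the part of E in an interval -/
theorem P_meas (hE : MeasurableSet E) {x s : ℝ} (hs : 0 ≤ s) :
    P E (x + s) - P E x = volume.real (E ∩ Ico x (x + s)) := by
  rw [P_sub hE, intervalIntegral.integral_of_le (by linarith), ← integral_Icc_eq_integral_Ioc,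
    integral_Icc_eq_integral_Ico, integral_indicator hE]
  simp [Measure.real, Measure.restrict_restrict hE]

theorem P_meas_Icc (hE : MeasurableSet E) {x s : ℝ} (hs : 0 ≤ s) :
    P E (x + s) - P E x = volume.real (E ∩ Icc x (x + s)) := by
  rw [P_sub hE, intervalIntegral.integral_of_le (by linarith),
    ← integral_Icc_eq_integral_Ioc, integral_indicator hE]
  simp [Measure.real, Measure.restrict_restrict hE]

end meas

/-- union of the dyadic subintervals (depth at most n) of [c, c + s) on which the density of E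
is smaller than q -/
noncomputable def U (E : Set ℝ) (q : ℝ) : ℕ → ℝ → ℝ → Set ℝ
  | 0, c, s => if volume.real (E ∩ Ico c (c + s)) < q * s then Ico c (c + s) else ∅
  | (n + 1), c, s => if volume.real (E ∩ Ico c (c + s)) < q * s then Ico c (c + s)
      else U E q n c (s / 2) ∪ U E q n (c + s / 2) (s / 2)

theorem U_sub (E : Set ℝ) (q : ℝ) (n : ℕ) : ∀ c s : ℝ, 0 ≤ s → U E q n c s ⊆ Ico c (c + s) := by
  induction n with
  | zero =>
    intro c s _
    unfold U
    split_ifs <;> simp
  | succ n ih =>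
    intro c s hs
    unfold U
    split_ifs
    · exact subset_rfl
    · refine union_subset ((ih c (s / 2) (by linarith)).trans ?_)
        ((ih (c + s / 2) (s / 2) (by linarith)).trans ?_)
      · exact Ico_subset_Ico le_rfl (by linarith)
      · exact Ico_subset_Ico (by linarith) (by linarith)

theorem U_meas (E : Set ℝ) (q : ℝ) (n : ℕ) : ∀ c s : ℝ, MeasurableSet (U E q n c s) := by
  induction n with
  | zero =>
    intro c s
    unfold U
    split_ifs
    · exact measurableSet_Ico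
    · exact MeasurableSet.empty
  | succ n ih =>
    intro c s
    unfold U
    split_ifs
    · exact measurableSet_Ico
    · exact (ih _ _).union (ih _ _)

theorem U_mono (E : Set ℝ) (q : ℝ) (n : ℕ) : ∀ c s : ℝ, U E q n c s ⊆ U E q (n + 1) c s := by
  induction n with
  | zero =>
    intro c s
    rw [U, U]
    split_ifs
    · exact subset_rfl
    · exact empty_subset _
  | succ n ih =>
    intro c s
    rw [U, U]
    split_ifs
    · exact subset_rfl
    · exact union_subset_union (ih _ _) (ih _ _)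

theorem U_vol {E : Set ℝ} {q : ℝ} (hE : MeasurableSet E) (n : ℕ) : ∀ c s : ℝ, 0 ≤ s →
    volume.real (E ∩ U E q n c s) ≤ q * volume.real (U E q n c s) := by
  induction n with
  | zero =>
    intro c s hs
    unfold U
    split_ifs with h
    · rw [Real.volume_real_Ico_of_le (by linarith)]
      simpa using h.le
    · simp
  | succ n ih =>
    intro c s hs
    unfold U
    split_ifs with h
    · rw [Real.volume_real_Ico_of_le (by linarith)]
      simpa using h.le
    · have h1 := ih c (s / 2) (by linarith)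
      have h2 := ih (c + s / 2) (s / 2) (by linarith)
      have hs1 := U_sub E q n c (s / 2) (by linarith)
      have hs2 := U_sub E q n (c + s / 2) (s / 2) (by linarith)
      have hd : Disjoint (U E q n c (s / 2)) (U E q n (c + s / 2) (s / 2)) := by
        refine Disjoint.mono hs1 hs2 ?_
        rw [Set.disjoint_left]
        intro x hx hx'
        exact absurd hx'.1 (not_le.mpr hx.2)
      have hf1 : volume (U E q n c (s / 2)) ≠ ⊤ :=
        ((measure_mono hs1).trans_lt (by simp)).ne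
      have hf2 : volume (U E q n (c + s / 2) (s / 2)) ≠ ⊤ :=
        ((measure_mono hs2).trans_lt (by simp)).ne
      rw [inter_union_distrib_left, measureReal_union (hd.mono inter_subset_right
        inter_subset_right) (hE.inter (U_meas _ _ _ _ _)) ((measure_mono inter_subset_right).trans_lt
          hf1.lt_top).ne ((measure_mono inter_subset_right).trans_lt hf2.lt_top).ne,
        measureReal_union hd (U_meas _ _ _ _ _) hf1 hf2, mul_add]
      exact add_le_add h1 h2

/-- the path of halvings towards x -/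
noncomputable def path (x c s : ℝ) : ℕ → ℝ
  | 0 => c
  | (n + 1) => if x < path x c s n + s / 2 ^ (n + 1) then path x c s n
      else path x c s n + s / 2 ^ (n + 1)

theorem half (s : ℝ) (n : ℕ) : s / 2 ^ n = s / 2 ^ (n + 1) + s / 2 ^ (n + 1) := by
  rw [pow_succ]
  field_simp
  ring

theorem path_mem {x c s : ℝ} (hx : x ∈ Ico c (c + s)) (n : ℕ) :
    x ∈ Ico (path x c s n) (path x c s n + s / 2 ^ n) := by
  induction n with
  | zero => simpa [path] using hx
  | succ n ih =>
    have h := half s n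
    rw [path]
    split_ifs with h1
    · exact ⟨ih.1, h1⟩
    · refine ⟨not_lt.mp h1, ?_⟩
      have := ih.2
      linarith

theorem path_not {E : Set ℝ} {q x c s : ℝ} (hx : x ∈ Ico c (c + s))
    (hU : ∀ m, x ∉ U E q m c s) (n : ℕ) : ∀ m, x ∉ U E q m (path x c s n) (s / 2 ^ n) := by
  induction n with
  | zero => simpa [path] using hU
  | succ n ih =>
    intro m
    have h := ih (m + 1)
    have h2 : s / 2 ^ n / 2 = s / 2 ^ (n + 1) := by rw [pow_succ, div_div]
    rw [U] at h
    split_ifs at h with hb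
    · exact absurd (path_mem hx n) h
    · rw [h2] at h
      rw [path]
      split_ifs with h1
      · exact fun hm => h (Or.inl hm)
      · exact fun hm => h (Or.inr hm)

theorem path_dens {E : Set ℝ} {q x c s : ℝ} (hx : x ∈ Ico c (c + s))
    (hU : ∀ m, x ∉ U E q m c s) (n : ℕ) :
    q * (s / 2 ^ n) ≤ volume.real (E ∩ Ico (path x c s n) (path x c s n + s / 2 ^ n)) := by
  have h := path_not hx hU n 0
  by_contra hlt
  rw [U, if_pos (not_le.mp hlt)] at h
  exact h (path_mem hx n)

theorem path_step {x c s : ℝ} (hs : 0 ≤ s) (n : ℕ) :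
    path x c s n ≤ path x c s (n + 1) ∧
      path x c s (n + 1) + s / 2 ^ (n + 1) ≤ path x c s n + s / 2 ^ n := by
  have h := half s n
  have hp : 0 ≤ s / 2 ^ (n + 1) := by positivity
  constructor
  · rw [path]
    split_ifs
    · exact le_rfl
    · linarith
  · rw [path]
    split_ifs
    · linarith
    · linarith

/-- a good density point -/
theorem point {E : Set ℝ} {q c s : ℝ} (hE : MeasurableSet E) (hq : 0 ≤ q) (hs : 0 < s)
    (hd : q * s < volume.real (E ∩ Ico c (c + s))) :
    ∃ x ∈ Ico c (c + s), (∀ m, x ∉ U E q m c s) ∧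
      Tendsto (fun n => (P E (path x c s n + s / 2 ^ n) - P E (path x c s n)) / (s / 2 ^ n))
        atTop (𝓝 1) := by
  have hvU : volume (E ∩ ⋃ n, U E q n c s) ≤ ENNReal.ofReal (q * s) := by
    rw [inter_iUnion]
    have hmono : Monotone fun n => E ∩ U E q n c s :=
      monotone_nat_of_le_succ fun n => inter_subset_inter_right _ (U_mono E q n c s)
    rw [hmono.measure_iUnion]
    refine iSup_le fun n => ?_
    have h1 := U_vol (q := q) hE n c s hs.le
    have hsub := U_sub E q n c s hs.le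
    have hfin : volume (U E q n c s) ≠ ⊤ := ((measure_mono hsub).trans_lt (by simp)).ne
    have h2 : volume.real (U E q n c s) ≤ s := by
      have : volume.real (U E q n c s) ≤ volume.real (Ico c (c + s)) :=
        measureReal_mono hsub (by simp)
      rwa [Real.volume_real_Ico_of_le (by linarith), add_sub_cancel_left] at this
    have h3 : volume.real (E ∩ U E q n c s) ≤ q * s :=
      h1.trans (mul_le_mul_of_nonneg_left h2 hq)
    rw [← ENNReal.ofReal_toReal ((measure_mono inter_subset_right).trans_lt hfin.lt_top).ne]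
    exact ENNReal.ofReal_le_ofReal h3
  have hpos : volume ((E ∩ Ico c (c + s)) \ ⋃ n, U E q n c s) ≠ 0 := by
    intro h0
    have h1 : volume (E ∩ Ico c (c + s)) ≤ ENNReal.ofReal (q * s) := by
      calc volume (E ∩ Ico c (c + s))
          ≤ volume (((E ∩ Ico c (c + s)) \ ⋃ n, U E q n c s) ∪ (E ∩ ⋃ n, U E q n c s)) := by
            refine measure_mono fun x hx => ?_
            by_cases hxU : x ∈ ⋃ n, U E q n c s
            · exact Or.inr ⟨hx.1, hxU⟩
            · exact Or.inl ⟨hx, hxU⟩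
        _ ≤ _ := (measure_union_le _ _).trans (by rw [h0, zero_add]; exact hvU)
    have hfin : volume (E ∩ Ico c (c + s)) ≠ ⊤ :=
      ((measure_mono inter_subset_right).trans_lt (by simp)).ne
    have h2 : volume.real (E ∩ Ico c (c + s)) ≤ q * s := by
      have := ENNReal.toReal_mono ENNReal.ofReal_ne_top h1
      rwa [ENNReal.toReal_ofReal (by positivity)] at this
    linarith
  have hae := IsUnifLocDoublingMeasure.ae_tendsto_measure_inter_div (volume : Measure ℝ) E 1
  rw [ae_restrict_iff' hE] at hae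
  obtain ⟨x, hx, hx2⟩ := ((frequently_ae_mem_iff.2 hpos).and_eventually hae).exists
  have hxI : x ∈ Ico c (c + s) := hx.1.2
  refine ⟨x, hxI, fun m hm => hx.2 (mem_iUnion.2 ⟨m, hm⟩), ?_⟩
  have hδ : Tendsto (fun n : ℕ => s / 2 ^ n / 2) atTop (𝓝[>] 0) := by
    rw [tendsto_nhdsWithin_iff]
    refine ⟨?_, Eventually.of_forall fun n => by
      have : 0 < s / 2 ^ n / 2 := by positivity
      exact this⟩
    have h1 : Tendsto (fun n : ℕ => (s / 2) * (1 / 2 : ℝ) ^ n) atTop (𝓝 ((s / 2) * 0)) :=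
      (tendsto_pow_atTop_nhds_zero_of_lt_one (by norm_num) (by norm_num)).const_mul _
    rw [mul_zero] at h1
    refine h1.congr fun n => ?_
    rw [one_div, inv_pow]
    field_simp
  have hball : ∀ n, Metric.closedBall (path x c s n + s / 2 ^ n / 2) (s / 2 ^ n / 2) =
      Icc (path x c s n) (path x c s n + s / 2 ^ n) := by
    intro n
    rw [Real.closedBall_eq_Icc]
    ring_nf
  have h3 := hx2 hx.1.1 (fun n => path x c s n + s / 2 ^ n / 2) (fun n => s / 2 ^ n / 2) hδ
    (Eventually.of_forall fun n => by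
      rw [one_mul, hball]
      exact Ico_subset_Icc_self (path_mem hxI n))
  have h4 := (ENNReal.tendsto_toReal ENNReal.one_ne_top).comp h3
  rw [ENNReal.toReal_one] at h4
  refine h4.congr fun n => ?_
  have hp : 0 < s / 2 ^ n := by positivity
  simp only [Function.comp]
  rw [hball, ENNReal.toReal_div, P_meas_Icc hE hp.le]
  congr 1
  rw [Real.volume_Icc, add_sub_cancel_left, ENNReal.toReal_ofReal hp.le]

/-- STEP UP -/
theorem up {E : Set ℝ} {q q2 c s : ℝ} (hE : MeasurableSet E) (hq : 0 ≤ q) (hq2 : q2 < 1)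
    (hs : 0 < s) (hd : q * s < P E (c + s) - P E c) (hd2 : P E (c + s) - P E c ≤ q2 * s) :
    ∃ (M : ℕ) (g : ℕ → ℝ), 1 ≤ M ∧ g 0 = c ∧ Ch (P E) q q2 s g M ∧
      P E (g M + s / 2 ^ M) - P E (g M) = q2 * (s / 2 ^ M) := by
  rw [P_meas hE hs.le] at hd
  obtain ⟨x, hxI, hU, hlim⟩ := point hE hq hs hd
  have hex : ∃ n, q2 * (s / 2 ^ n) < P E (path x c s n + s / 2 ^ n) - P E (path x c s n) := by
    obtain ⟨n, hn⟩ := (hlim.eventually (lt_mem_nhds hq2)).exists
    exact ⟨n, (lt_div_iff₀ (by positivity)).1 hn⟩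
  classical
  set N := Nat.find hex with hN
  have hN1 := Nat.find_spec hex
  have hN0 : 0 < N := by
    rcases Nat.eq_zero_or_pos N with h0 | h0
    · rw [← hN, h0] at hN1
      simp only [path, pow_zero, div_one] at hN1
      linarith
    · exact h0
  obtain ⟨K, hK⟩ : ∃ K, N = K + 1 := ⟨N - 1, by omega⟩
  have hmin : ∀ i ≤ K, P E (path x c s i + s / 2 ^ i) - P E (path x c s i) ≤ q2 * (s / 2 ^ i) := by
    intro i hi
    exact not_lt.mp (Nat.find_min hex (by omega))
  have hp : 0 < s / 2 ^ (K + 1) := by positivity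
  have hhalf := half s K
  rw [← hN, hK] at hN1
  set A := path x c s K with hA
  set h := s / 2 ^ (K + 1) with hh
  have hpar : P E (A + h + h) - P E A ≤ q2 * (h + h) := by
    have := hmin K le_rfl
    rw [hhalf, ← add_assoc] at this
    exact this
  have hcont : Continuous fun t => P E (t + h) - P E t :=
    ((P_cont hE).comp (continuous_id.add continuous_const)).sub (P_cont hE)
  have hIVT : ∃ t ∈ Icc A (A + h), P E (t + h) - P E t = q2 * h := by
    rw [path] at hN1
    split_ifs at hN1 with hcase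
    · have h1 : P E (A + h + h) - P E (A + h) ≤ q2 * h := by linarith
      exact intermediate_value_Icc' (by linarith) hcont.continuousOn ⟨h1, hN1.le⟩
    · have h1 : P E (A + h) - P E A ≤ q2 * h := by linarith
      exact intermediate_value_Icc (by linarith) hcont.continuousOn ⟨h1, hN1.le⟩
  obtain ⟨t, ht, hteq⟩ := hIVT
  refine ⟨K + 1, fun n => if n ≤ K then path x c s n else t, by omega, by simp [path], ⟨?_, ?_⟩, ?_⟩
  · intro i hi
    rcases Nat.lt_or_ge i K with hlt | hge
    · simp only [hlt.le, if_true, Nat.succ_le_of_lt hlt]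
      exact path_step hs.le i
    · have hiK : i = K := by omega
      subst hiK
      have h1 : ¬ (i + 1 ≤ i) := by omega
      simp only [le_refl, if_true, h1, if_false]
      refine ⟨ht.1, ?_⟩
      have := ht.2
      linarith
  · intro i hi
    rcases Nat.lt_or_ge K i with hlt | hge
    · have hiK : i = K + 1 := by omega
      subst hiK
      have h1 : ¬ (K + 1 ≤ K) := by omega
      simp only [h1, if_false]
      rw [← hh, hteq]
      refine ⟨?_, le_rfl⟩
      have hqq : q ≤ q2 := by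
        have h2 := path_dens hxI hU 0
        simp only [path, pow_zero, div_one] at h2
        rw [← P_meas hE hs.le] at h2 hd
        nlinarith
      exact mul_le_mul_of_nonneg_right hqq hp.le
    · simp only [hge, if_true]
      refine ⟨?_, hmin i hge⟩
      have h2 := path_dens hxI hU i
      rwa [← P_meas hE (by positivity)] at h2
  · have h1 : ¬ (K + 1 ≤ K) := by omega
    simp only [h1, if_false]
    exact hteq

theorem P_compl {E : Set ℝ} (hE : MeasurableSet E) (x y : ℝ) :
    P Eᶜ y - P Eᶜ x = (y - x) - (P E y - P E x) := by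
  rw [P_sub hE, P_sub hE.compl]
  have h : ∀ t, Eᶜ.indicator (fun _ => (1 : ℝ)) t = 1 - E.indicator (fun _ => (1 : ℝ)) t := by
    intro t
    by_cases ht : t ∈ E <;> simp [ht]
  simp_rw [h]
  rw [intervalIntegral.integral_sub (by simp) (int_ind hE _ _)]
  simp

/-- STEP DOWN -/
theorem down {E : Set ℝ} {q q2 c s : ℝ} (hE : MeasurableSet E) (hq : q ≤ 1) (hq2 : 0 < q2)
    (hs : 0 < s) (hd : P E (c + s) - P E c < q * s) (hd2 : q2 * s ≤ P E (c + s) - P E c) :
    ∃ (M : ℕ) (g : ℕ → ℝ), 1 ≤ M ∧ g 0 = c ∧ Ch (P E) q2 q s g M ∧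
      P E (g M + s / 2 ^ M) - P E (g M) = q2 * (s / 2 ^ M) := by
  have hc := P_compl hE c (c + s)
  rw [add_sub_cancel_left] at hc
  obtain ⟨M, g, hM, hg0, hg, hgM⟩ := up (q := 1 - q) (q2 := 1 - q2) (c := c) (s := s) hE.compl
    (by linarith) (by linarith) hs (by rw [hc]; linarith) (by rw [hc]; linarith)
  have key : ∀ i, P E (g i + s / 2 ^ i) - P E (g i) =
      s / 2 ^ i - (P Eᶜ (g i + s / 2 ^ i) - P Eᶜ (g i)) := by
    intro i
    have := P_compl hE (g i) (g i + s / 2 ^ i)
    rw [add_sub_cancel_left] at this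
    linarith
  refine ⟨M, g, hM, hg0, ⟨hg.1, fun i hi => ?_⟩, ?_⟩
  · have h1 := hg.2 i hi
    rw [key i]
    constructor
    · linarith [h1.2]
    · linarith [h1.1]
  · rw [key M, hgM]
    ring

/-- one full oscillation: from density q1 over q2 back to q1 -/
theorem swing {E : Set ℝ} {q0 q1 q2 q3 c s : ℝ} (hE : MeasurableSet E) (h0 : 0 < q0)
    (h01 : q0 < q1) (h12 : q1 < q2) (h23 : q2 < q3) (h3 : q3 < 1) (hs : 0 < s)
    (hd : P E (c + s) - P E c = q1 * s) :
    ∃ (M : ℕ) (g : ℕ → ℝ), g 0 = c ∧ Ch (P E) q0 q3 s g M ∧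
      P E (g M + s / 2 ^ M) - P E (g M) = q1 * (s / 2 ^ M) ∧
      ∃ m, 0 < m ∧ m < M ∧ P E (g m + s / 2 ^ m) - P E (g m) = q2 * (s / 2 ^ m) := by
  obtain ⟨M, g, hM, hg0, hg, hgM⟩ := up (q := q0) (q2 := q2) hE h0.le (by linarith) hs
    (by rw [hd]; nlinarith) (by rw [hd]; nlinarith)
  have hs' : 0 < s / 2 ^ M := by positivity
  obtain ⟨M', g', hM', hg0', hg', hgM'⟩ := down (q := q3) (q2 := q1) (c := g M) (s := s / 2 ^ M)
    hE (by linarith) (by linarith) hs' (by rw [hgM]; nlinarith) (by rw [hgM]; nlinarith)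
  have hcat := (hg.mono hs.le le_rfl h23.le).cat (hg'.mono hs'.le h01.le le_rfl) hg0'
  refine ⟨M + M', cat g g' M, ?_, hcat, ?_, M, by omega, by omega, ?_⟩
  · rw [cat_le (Nat.zero_le _), hg0]
  · rw [cat_ge hg0', pow_add, ← div_div]
    exact hgM'
  · rw [cat_le le_rfl]
    exact hgM

/-- the oscillating nested intervals, in terms of the primitive -/
theorem osc_P {E : Set ℝ} {q0 q1 q2 q3 c s : ℝ} (hE : MeasurableSet E) (h0 : 0 < q0)
    (h01 : q0 < q1) (h12 : q1 < q2) (h23 : q2 < q3) (h3 : q3 < 1) (hs : 0 < s)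
    (hd : P E (c + s) - P E c = q1 * s) :
    ∃ g : ℕ → ℝ, g 0 = c ∧
      (∀ i, g i ≤ g (i + 1) ∧ g (i + 1) + s / 2 ^ (i + 1) ≤ g i + s / 2 ^ i) ∧
      (∀ i, q0 * (s / 2 ^ i) ≤ P E (g i + s / 2 ^ i) - P E (g i) ∧
        P E (g i + s / 2 ^ i) - P E (g i) ≤ q3 * (s / 2 ^ i)) ∧
      (∃ᶠ i in atTop, P E (g i + s / 2 ^ i) - P E (g i) = q1 * (s / 2 ^ i)) ∧
      (∃ᶠ i in atTop, P E (g i + s / 2 ^ i) - P E (g i) = q2 * (s / 2 ^ i)) := by
  let T := {p : ℕ × (ℕ → ℝ) // p.2 0 = c ∧ Ch (P E) q0 q3 s p.2 p.1 ∧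
    P E (p.2 p.1 + s / 2 ^ p.1) - P E (p.2 p.1) = q1 * (s / 2 ^ p.1)}
  have step : ∀ p : T, ∃ p' : T, p.1.1 < p'.1.1 ∧ (∀ n ≤ p.1.1, p'.1.2 n = p.1.2 n) ∧
      ∃ m, p.1.1 < m ∧ m < p'.1.1 ∧
        P E (p'.1.2 m + s / 2 ^ m) - P E (p'.1.2 m) = q2 * (s / 2 ^ m) := by
    rintro ⟨⟨N, g⟩, hg0, hg, hgN⟩
    have hs' : 0 < s / 2 ^ N := by positivity
    obtain ⟨M, g', hg0', hg', hgM', m, hm0, hmM, hm⟩ :=
      swing (c := g N) (s := s / 2 ^ N) hE h0 h01 h12 h23 h3 hs' hgN
    refine ⟨⟨(N + M, cat g g' N), ?_, hg.cat hg' hg0', ?_⟩, ?_, ?_, N + m, ?_, ?_, ?_⟩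
    · show cat g g' N 0 = c
      rw [cat_le (Nat.zero_le _)]
      exact hg0
    · show P E (cat g g' N (N + M) + s / 2 ^ (N + M)) - P E (cat g g' N (N + M)) = _
      rw [cat_ge hg0', pow_add, ← div_div]
      exact hgM'
    · show N < N + M
      omega
    · intro n hn
      exact cat_le hn
    · show N < N + m
      omega
    · show N + m < N + M
      omega
    · show P E (cat g g' N (N + m) + s / 2 ^ (N + m)) - P E (cat g g' N (N + m)) = _
      rw [cat_ge hg0', pow_add, ← div_div]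
      exact hm
  choose nx hnx using step
  let p0 : T := ⟨(0, fun _ => c), rfl, ⟨fun i hi => absurd hi (Nat.not_lt_zero _), fun i hi => by
    have hi0 : i = 0 := Nat.le_zero.mp hi
    subst hi0
    simp only [pow_zero, div_one]
    rw [hd]
    constructor <;> nlinarith⟩, by simpa using hd⟩
  let sq : ℕ → T := fun k => nx^[k] p0
  have hsq : ∀ k, sq (k + 1) = nx (sq k) := fun k => Function.iterate_succ_apply' nx k p0
  have hN : ∀ k, k ≤ (sq k).1.1 := by
    intro k
    induction k with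
    | zero => exact Nat.zero_le _
    | succ k ih =>
      rw [hsq]
      exact Nat.succ_le_of_lt (lt_of_le_of_lt ih (hnx (sq k)).1)
  have hag1 : ∀ k j, (sq k).1.1 ≤ (sq (k + j)).1.1 ∧
      ∀ n ≤ (sq k).1.1, (sq (k + j)).1.2 n = (sq k).1.2 n := by
    intro k j
    induction j with
    | zero => exact ⟨le_rfl, fun n _ => rfl⟩
    | succ j ih =>
      rw [← add_assoc, hsq]
      refine ⟨ih.1.trans (hnx (sq (k + j))).1.le, fun n hn => ?_⟩
      rw [(hnx (sq (k + j))).2.1 n (hn.trans ih.1)]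
      exact ih.2 n hn
  have hag : ∀ n k, n ≤ (sq k).1.1 → (sq n).1.2 n = (sq k).1.2 n := by
    intro n k hn
    rcases le_total n k with h | h
    · obtain ⟨j, rfl⟩ := Nat.exists_eq_add_of_le h
      exact ((hag1 n j).2 n (hN n)).symm
    · obtain ⟨j, rfl⟩ := Nat.exists_eq_add_of_le h
      exact (hag1 k j).2 _ hn
  refine ⟨fun n => (sq n).1.2 n, (sq 0).2.1, fun i => ?_, fun i => ?_, ?_, ?_⟩
  · have h1 : i + 1 ≤ (sq (i + 1)).1.1 := hN (i + 1)
    have h2 := (sq (i + 1)).2.2.1.1 i (by omega)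
    simp only
    rw [hag i (i + 1) (by omega)]
    exact h2
  · exact (sq i).2.2.1.2 i (hN i)
  · rw [frequently_atTop]
    intro k
    refine ⟨(sq k).1.1, hN k, ?_⟩
    simp only
    rw [hag _ k le_rfl]
    exact (sq k).2.2.2
  · rw [frequently_atTop]
    intro k
    obtain ⟨m, hm1, hm2, hm3⟩ := (hnx (sq k)).2.2
    refine ⟨m, (hN k).trans hm1.le, ?_⟩
    simp only
    rw [← hsq] at hm2 hm3
    rw [hag m (k + 1) hm2.le]
    exact hm3

/-- **OSC.** The oscillating nested intervals. -/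
theorem osc {E : Set ℝ} {q0 q1 q2 q3 c s : ℝ} (hE : MeasurableSet E) (h0 : 0 < q0)
    (h01 : q0 < q1) (h12 : q1 < q2) (h23 : q2 < q3) (h3 : q3 < 1) (hs : 0 < s)
    (hd : volume.real (E ∩ Icc c (c + s)) = q1 * s) :
    ∃ g : ℕ → ℝ, g 0 = c ∧
      (∀ i, g i ≤ g (i + 1) ∧ g (i + 1) + s / 2 ^ (i + 1) ≤ g i + s / 2 ^ i) ∧
      (∀ i, q0 * (s / 2 ^ i) ≤ volume.real (E ∩ Icc (g i) (g i + s / 2 ^ i)) ∧
        volume.real (E ∩ Icc (g i) (g i + s / 2 ^ i)) ≤ q3 * (s / 2 ^ i)) ∧
      (∃ᶠ i in atTop, volume.real (E ∩ Icc (g i) (g i + s / 2 ^ i)) = q1 * (s / 2 ^ i)) ∧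
      (∃ᶠ i in atTop, volume.real (E ∩ Icc (g i) (g i + s / 2 ^ i)) = q2 * (s / 2 ^ i)) := by
  rw [← P_meas_Icc hE hs.le] at hd
  obtain ⟨g, hg0, hg1, hg2, hg3, hg4⟩ := osc_P hE h0 h01 h12 h23 h3 hs hd
  have hp : ∀ i : ℕ, 0 ≤ s / 2 ^ i := fun i => by positivity
  refine ⟨g, hg0, hg1, fun i => ?_, ?_, ?_⟩
  · rw [← P_meas_Icc hE (hp i)]
    exact hg2 i
  · exact hg3.mono fun i hi => by rw [← P_meas_Icc hE (hp i)]; exact hi
  · exact hg4.mono fun i hi => by rw [← P_meas_Icc hE (hp i)]; exact hi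

/-- the common point of the nested intervals -/
theorem nested_point {g : ℕ → ℝ} {s : ℝ} (hs : 0 ≤ s)
    (h : ∀ i, g i ≤ g (i + 1) ∧ g (i + 1) + s / 2 ^ (i + 1) ≤ g i + s / 2 ^ i) :
    ∃ y, ∀ i, y ∈ Icc (g i) (g i + s / 2 ^ i) := by
  have hmono : Monotone g := monotone_nat_of_le_succ fun i => (h i).1
  have hanti : Antitone fun i => g i + s / 2 ^ i := antitone_nat_of_succ_le fun i => (h i).2
  have hp : ∀ i : ℕ, 0 ≤ s / 2 ^ i := fun i => by positivity
  have hle : ∀ i j, g i ≤ g j + s / 2 ^ j := by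
    intro i j
    rcases le_total i j with hij | hij
    · exact (hmono hij).trans (by linarith [hp j])
    · have := hanti hij
      simp only at this
      linarith [hp i]
  have hbdd : BddAbove (range g) := ⟨g 0 + s / 2 ^ 0, by rintro _ ⟨i, rfl⟩; exact hle i 0⟩
  exact ⟨⨆ i, g i, fun i => ⟨le_ciSup hbdd i, ciSup_le fun j => hle j i⟩⟩

/-- a starting interval: E and its complement have positive measure in (a, b) -/
theorem start {E : Set ℝ} {a b q : ℝ} (hE : MeasurableSet E) (h0 : 0 < q) (h1 : q < 1)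
    (hE1 : volume (E ∩ Ioo a b) ≠ 0) (hE2 : volume (Ioo a b \ E) ≠ 0) :
    ∃ c s, 0 < s ∧ a ≤ c ∧ c + s ≤ b ∧ volume.real (E ∩ Icc c (c + s)) = q * s := by
  have hlim : ∀ S : Set ℝ, MeasurableSet S → volume (S ∩ Ioo a b) ≠ 0 → ∃ x ∈ Ioo a b,
      ∀ ε > 0, ∃ r > 0, ∀ t, 0 < t → t < r → (1 - ε) * t < volume.real (S ∩ Icc x (x + t)) := by
    intro S hS hSn
    have hae := IsUnifLocDoublingMeasure.ae_tendsto_measure_inter_div (volume : Measure ℝ) S 1
    rw [ae_restrict_iff' hS] at hae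
    obtain ⟨x, hx, hx2⟩ := ((frequently_ae_mem_iff.2 hSn).and_eventually hae).exists
    refine ⟨x, hx.2, fun ε hε => ?_⟩
    have hball : ∀ t : ℝ, Metric.closedBall (x + t / 2) (t / 2) = Icc x (x + t) := by
      intro t
      rw [Real.closedBall_eq_Icc]
      ring_nf
    have h3 := hx2 hx.1 (l := 𝓝[>] (0 : ℝ)) (fun t => x + t / 2) (fun t => t / 2) (by
      rw [tendsto_nhdsWithin_iff]
      refine ⟨?_, ?_⟩
      · have : Tendsto (fun t : ℝ => t / 2) (𝓝 0) (𝓝 (0 / 2)) := tendsto_id.div_const 2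
        rw [zero_div] at this
        exact this.mono_left nhdsWithin_le_nhds
      · filter_upwards [self_mem_nhdsWithin] with t ht
        exact half_pos (show (0 : ℝ) < t from ht)) (by
      filter_upwards [self_mem_nhdsWithin] with t ht
      rw [one_mul, hball]
      exact ⟨le_rfl, by linarith [show (0 : ℝ) < t from ht]⟩)
    have h4 := (ENNReal.tendsto_toReal ENNReal.one_ne_top).comp h3
    rw [ENNReal.toReal_one] at h4
    have h5 := h4.eventually (lt_mem_nhds (show 1 - ε < 1 by linarith))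
    rw [eventually_nhdsWithin_iff, Metric.eventually_nhds_iff] at h5
    obtain ⟨r, hr, h6⟩ := h5
    refine ⟨r, hr, fun t ht htr => ?_⟩
    have h7 := h6 (y := t) (by rw [Real.dist_eq, sub_zero, abs_of_pos ht]; exact htr) ht
    simp only [Function.comp] at h7
    rw [hball, ENNReal.toReal_div, Real.volume_Icc, add_sub_cancel_left,
      ENNReal.toReal_ofReal ht.le, lt_div_iff₀ ht] at h7
    exact h7
  obtain ⟨x, hx, hxl⟩ := hlim E hE hE1
  have hcE : volume (Eᶜ ∩ Ioo a b) ≠ 0 := by
    rwa [show Eᶜ ∩ Ioo a b = Ioo a b \ E by ext z; simp [and_comm]]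
  obtain ⟨y, hy, hyl⟩ := hlim Eᶜ hE.compl hcE
  obtain ⟨r1, hr1, h1'⟩ := hxl (1 - q) (by linarith)
  obtain ⟨r2, hr2, h2'⟩ := hyl q h0
  obtain ⟨t, ht, ht1, ht2, ht3, ht4⟩ : ∃ t, 0 < t ∧ t < r1 ∧ t < r2 ∧ x + t ≤ b ∧ y + t ≤ b := by
    refine ⟨min (min r1 r2) (min (b - x) (b - y)) / 2, ?_, ?_, ?_, ?_, ?_⟩
    · have := hx.2
      have := hy.2
      have : 0 < min (min r1 r2) (min (b - x) (b - y)) := by
        simp only [lt_min_iff]
        exact ⟨⟨hr1, hr2⟩, by linarith [hx.2], by linarith [hy.2]⟩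
      linarith
    all_goals
      have h01 : min (min r1 r2) (min (b - x) (b - y)) ≤ r1 :=
        (min_le_left _ _).trans (min_le_left _ _)
      have h02 : min (min r1 r2) (min (b - x) (b - y)) ≤ r2 :=
        (min_le_left _ _).trans (min_le_right _ _)
      have h03 : min (min r1 r2) (min (b - x) (b - y)) ≤ b - x :=
        (min_le_right _ _).trans (min_le_left _ _)
      have h04 : min (min r1 r2) (min (b - x) (b - y)) ≤ b - y :=
        (min_le_right _ _).trans (min_le_right _ _)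
      have h05 := hx.2
      have h06 := hy.2
      have h07 : 0 < min (min r1 r2) (min (b - x) (b - y)) := by
        simp only [lt_min_iff]
        exact ⟨⟨hr1, hr2⟩, by linarith [hx.2], by linarith [hy.2]⟩
      linarith
  have hx3 : q * t ≤ P E (x + t) - P E x := by
    rw [P_meas_Icc hE ht.le]
    have := h1' t ht ht1
    rw [sub_sub_cancel] at this
    exact this.le
  have hy3 : P E (y + t) - P E y ≤ q * t := by
    have h := h2' t ht ht2
    rw [← P_meas_Icc hE.compl ht.le, P_compl hE, add_sub_cancel_left] at h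
    linarith
  have hcont : ContinuousOn (fun z => P E (z + t) - P E z) (uIcc y x) :=
    (((P_cont hE).comp (continuous_id.add continuous_const)).sub (P_cont hE)).continuousOn
  obtain ⟨c, hc, hceq⟩ := intermediate_value_uIcc hcont
    (show q * t ∈ uIcc _ _ from mem_uIcc_of_le hy3 hx3)
  have hca : a ≤ c := (le_min hy.1.le hx.1.le).trans hc.1
  have hcb : c + t ≤ b := by
    have : c ≤ max y x := hc.2
    rcases le_total y x with h | h
    · rw [max_eq_right h] at this
      linarith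
    · rw [max_eq_left h] at this
      linarith
  refine ⟨c, t, ht, hca, hcb, ?_⟩
  rw [← P_meas_Icc hE ht.le]
  exact hceq

/-- **OSC, final form.** E and its complement have positive measure in (a, b). There are nested
closed intervals in [a, b], halved at every step, with a common point y, in which the density of E
stays in [q0, q3], is q1 infinitely often and q2 infinitely often. -/
theorem osc_main {E : Set ℝ} {a b q0 q1 q2 q3 : ℝ} (hE : MeasurableSet E)
    (hE1 : volume (E ∩ Ioo a b) ≠ 0) (hE2 : volume (Ioo a b \ E) ≠ 0) (h0 : 0 < q0)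
    (h01 : q0 < q1) (h12 : q1 < q2) (h23 : q2 < q3) (h3 : q3 < 1) :
    ∃ (g : ℕ → ℝ) (s y : ℝ), 0 < s ∧ a ≤ g 0 ∧ g 0 + s ≤ b ∧
      (∀ i, y ∈ Icc (g i) (g i + s / 2 ^ i)) ∧
      (∀ i, g i ≤ g (i + 1) ∧ g (i + 1) + s / 2 ^ (i + 1) ≤ g i + s / 2 ^ i) ∧
      (∀ i, q0 * (s / 2 ^ i) ≤ volume.real (E ∩ Icc (g i) (g i + s / 2 ^ i)) ∧
        volume.real (E ∩ Icc (g i) (g i + s / 2 ^ i)) ≤ q3 * (s / 2 ^ i)) ∧
      (∃ᶠ i in atTop, volume.real (E ∩ Icc (g i) (g i + s / 2 ^ i)) = q1 * (s / 2 ^ i)) ∧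
      (∃ᶠ i in atTop, volume.real (E ∩ Icc (g i) (g i + s / 2 ^ i)) = q2 * (s / 2 ^ i)) := by
  obtain ⟨c, s, hs, hac, hcb, hcs⟩ := start hE (q := q1) (by linarith) (by linarith) hE1 hE2
  obtain ⟨g, hg0, hg1, hg2, hg3, hg4⟩ := osc hE h0 h01 h12 h23 h3 hs hcs
  obtain ⟨y, hy⟩ := nested_point hs.le hg1
  exact ⟨g, s, y, hs, by rw [hg0]; exact hac, by rw [hg0]; exact hcb, hy, hg1, hg2, hg3, hg4⟩

end Vale.Agent.P097.H290.Osc
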